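import Mathlib

/-!
# P331: one sample per element, almighty adversary: definitions

The probability space is `Om E = E → ℝ≥0 × ℝ≥0`: the pair at `e` is (sample `S e`, value `V e`),
with the product law `law D` (all `2 |E|` coordinates independent, `S e` and `V e` of law `D e`).
-/

namespace P331

open MeasureTheory
open scoped NNReal ENNReal

variable {E : Type} [Fintype E] [DecidableEq E]

/-- outcomes: for every element its pair (sample, value) -/
abbrev Om (E : Type) : Type := E → ℝ≥0 × ℝ≥0

/-- the sample of `e` -/
def smp (ω : Om E) (e : E) : ℝ≥0 := (ω e).1

/-- the value of `e` -/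
def val (ω : Om E) (e : E) : ℝ≥0 := (ω e).2

/-- the joint law: all samples and values independent, `smp e` and `val e` of law `D e` -/
noncomputable def law (D : E → Measure ℝ≥0) : Measure (Om E) :=
  Measure.pi fun e => (D e).prod (D e)

/-- the prophet's benchmark: the largest total value of an independent set -/
noncomputable def opt (M : Matroid E) (ω : Om E) : ℝ≥0∞ :=
  ⨆ (I : Finset E) (_ : M.Indep (I : Set E)), ((∑ e ∈ I, val ω e : ℝ≥0) : ℝ≥0∞)

open Classical in
/-- the largest sample of a non-loop -/
noncomputable def Y (M : Matroid E) (ω : Om E) : ℝ≥0 :=
  Finset.univ.sup fun e => if M.Indep {e} then smp ω e else 0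

open Classical in
/-- the largest value of a non-loop -/
noncomputable def X (M : Matroid E) (ω : Om E) : ℝ≥0 :=
  Finset.univ.sup fun e => if M.Indep {e} then val ω e else 0

/-- the acceptance test of the rule with seed `j`, a function of the samples (through `Y`), of the
seed and of the value of the arriving element only: for `j ≤ k` the value must exceed `Y / 2 ^ j`,
for `j > k` it must be at least `Y` -/
def acc (M : Matroid E) (k j : ℕ) (ω : Om E) (e : E) : Prop :=
  if j ≤ k then Y M ω / 2 ^ j < val ω e else Y M ω ≤ val ω e

open Classical in
/-- the accepted set after the elements of the list have arrived (head first): an arriving element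
is accepted iff it passes the test `P` and keeps the accepted set independent -/
noncomputable def run (M : Matroid E) (P : E → Prop) (l : List E) : Finset E :=
  l.foldl (fun A e => if P e ∧ M.Indep ((insert e A : Finset E) : Set E) then insert e A else A) ∅

/-- total value of a set of elements -/
noncomputable def wt (ω : Om E) (A : Finset E) : ℝ≥0 := ∑ e ∈ A, val ω e

open Classical in
/-- exchange sample and value of the elements of `T` -/
def swp (T : Finset E) (ω : Om E) : Om E := fun e => if e ∈ T then (ω e).swap else ω e

/-- the event that the largest sample is at least the largest value (non-loops only) -/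
def setA (M : Matroid E) : Set (Om E) := {ω | X M ω ≤ Y M ω}

/-- the event that the largest value beats all samples and every non-loop whose value beats all
samples attains the largest value -/
def good1 (M : Matroid E) : Set (Om E) :=
  {ω | Y M ω < X M ω ∧ ∀ e, M.Indep {e} → Y M ω < val ω e → X M ω ≤ val ω e}

/-- the event that the largest value equals the largest sample -/
def tie (M : Matroid E) : Set (Om E) := {ω | X M ω = Y M ω}

open Classical in
/-- the largest size of an independent set all of whose values exceed `t` -/
noncomputable def cnt (M : Matroid E) (t : ℝ≥0) (ω : Om E) : ℕ :=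
  Finset.univ.sup fun I : Finset E =>
    if M.Indep (I : Set E) ∧ ∀ e ∈ I, t < val ω e then I.card else 0

/-- guaranteed gain of the rule with seed `j`, `1 ≤ j ≤ k` -/
noncomputable def lev (M : Matroid E) (j : ℕ) (ω : Om E) : ℝ≥0 :=
  Y M ω / 2 ^ j * cnt M (Y M ω / 2 ^ j) ω

end P331
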