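import Vale.Agent.Lib.P331.LR.Defs

namespace P331

open scoped NNReal ENNReal

variable {E : Type} [Fintype E] [DecidableEq E]

open Classical in
/-- one step of the greedy rule -/
noncomputable def stp (M : Matroid E) (P : E → Prop) (A : Finset E) (e : E) : Finset E :=
  if P e ∧ M.Indep ((insert e A : Finset E) : Set E) then insert e A else A

theorem run_eq (M : Matroid E) (P : E → Prop) (l : List E) :
    run M P l = l.foldl (stp M P) ∅ := rfl

theorem stp_mono (M : Matroid E) (P : E → Prop) (A : Finset E) (e : E) : A ⊆ stp M P A e := by
  unfold stp
  split_ifs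
  · exact Finset.subset_insert _ _
  · exact Finset.Subset.refl _

theorem fold_mono (M : Matroid E) (P : E → Prop) (l : List E) :
    ∀ A0 : Finset E, A0 ⊆ l.foldl (stp M P) A0 := by
  induction l with
  | nil => intro A0; exact Finset.Subset.refl _
  | cons a t ih =>
    intro A0
    rw [List.foldl_cons]
    exact (stp_mono M P A0 a).trans (ih _)

theorem fold_inv (M : Matroid E) (P : E → Prop) (l : List E) :
    ∀ A0 : Finset E, M.Indep (A0 : Set E) → (∀ e ∈ A0, P e) →
      M.Indep ((l.foldl (stp M P) A0 : Finset E) : Set E) ∧
        ∀ e ∈ l.foldl (stp M P) A0, P e := by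
  induction l with
  | nil => intro A0 h0 h1; exact ⟨h0, h1⟩
  | cons a t ih =>
    intro A0 h0 h1
    rw [List.foldl_cons]
    apply ih
    · unfold stp
      split_ifs with h
      · exact h.2
      · exact h0
    · intro e he
      unfold stp at he
      split_ifs at he with h
      · rcases Finset.mem_insert.mp he with rfl | he'
        · exact h.1
        · exact h1 e he'
      · exact h1 e he

theorem fold_max (M : Matroid E) (P : E → Prop) (l : List E) :
    ∀ A0 : Finset E, ∀ e ∈ l, P e →
      M.Indep (insert e ((l.foldl (stp M P) A0 : Finset E) : Set E)) →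
      e ∈ l.foldl (stp M P) A0 := by
  induction l with
  | nil => intro A0 e he; simp at he
  | cons a t ih =>
    intro A0 e he hP hind
    rw [List.foldl_cons] at hind ⊢
    rcases List.mem_cons.mp he with rfl | he'
    · have hsub : A0 ⊆ t.foldl (stp M P) (stp M P A0 e) :=
        (stp_mono M P A0 e).trans (fold_mono M P t _)
      have h1 : M.Indep ((insert e A0 : Finset E) : Set E) := by
        rw [Finset.coe_insert]
        exact hind.subset (Set.insert_subset_insert (by exact_mod_cast hsub))
      have h2 : stp M P A0 e = insert e A0 := by
        unfold stp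
        rw [if_pos ⟨hP, h1⟩]
      apply fold_mono M P t _
      rw [h2]
      exact Finset.mem_insert_self _ _
    · exact ih _ e he' hP hind

/-- the accepted set is independent -/
theorem run_indep (M : Matroid E) (P : E → Prop) (l : List E) :
    M.Indep ((run M P l : Finset E) : Set E) := by
  rw [run_eq]
  exact (fold_inv M P l ∅ (by simp) (by simp)).1

/-- every accepted element passed the test -/
theorem run_sub (M : Matroid E) (P : E → Prop) (l : List E) : ∀ e ∈ run M P l, P e := by
  rw [run_eq]
  exact (fold_inv M P l ∅ (by simp) (by simp)).2

/-- whatever the order, the accepted set is at least as large as every independent set of elements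
passing the test -/
theorem run_card (M : Matroid E) (P : E → Prop) (l : List E) (hl : ∀ e, e ∈ l)
    (I : Finset E) (hI : M.Indep (I : Set E)) (hP : ∀ e ∈ I, P e) :
    I.card ≤ (run M P l).card := by
  by_contra hcon
  have hlt : (run M P l).card < I.card := not_le.mp hcon
  have henc : ((run M P l : Finset E) : Set E).encard < (I : Set E).encard := by
    rw [Set.encard_coe_eq_coe_finsetCard, Set.encard_coe_eq_coe_finsetCard]
    exact_mod_cast hlt
  obtain ⟨e, he, hind⟩ := (run_indep M P l).augment hI henc
  have heI : e ∈ I := by exact_mod_cast he.1
  apply he.2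
  have := fold_max M P l ∅ e (hl e) (hP e heI) (by rw [← run_eq]; exact hind)
  rw [← run_eq] at this
  exact_mod_cast this

end P331
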