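import Vale.Agent.Lib.P331.LR.Pointwise

namespace P331

open scoped NNReal ENNReal

variable {E : Type} [Fintype E] [DecidableEq E]

theorem card_le_cnt (M : Matroid E) (t : ℝ≥0) (ω : Om E) (J : Finset E)
    (hJ : M.Indep (J : Set E)) (h : ∀ e ∈ J, t < val ω e) : J.card ≤ cnt M t ω := by
  classical
  unfold cnt
  refine le_trans ?_ (Finset.le_sup (Finset.mem_univ J))
  rw [if_pos ⟨hJ, h⟩]

theorem half_step (y : ℝ≥0) (j : ℕ) : y / 2 ^ j = 2 * (y / 2 ^ (j + 1)) := by
  rw [pow_succ]
  field_simp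

theorem sum_filter_le_levels (M : Matroid E) (ω : Om E)
    (h : X M ω ≤ Y M ω) (I : Finset E) (hI : M.Indep (I : Set E)) (j : ℕ) :
    ∑ e ∈ I.filter (fun e => Y M ω / 2 ^ j < val ω e), val ω e ≤
      2 * ∑ i ∈ Finset.Icc 1 j, lev M i ω := by
  induction j with
  | zero =>
    have hemp : I.filter (fun e => Y M ω / 2 ^ 0 < val ω e) = ∅ := by
      refine Finset.filter_eq_empty_iff.2 fun e he => ?_
      have h1 : M.Indep {e} := hI.subset (by simpa using he)
      have h2 := (val_le_X M ω e h1).trans h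
      simpa using h2
    rw [hemp]
    simp
  | succ j ih =>
    set s' := I.filter (fun e => Y M ω / 2 ^ (j + 1) < val ω e) with hs'
    have hle : Y M ω / 2 ^ (j + 1) ≤ Y M ω / 2 ^ j := by
      rw [half_step (Y M ω) j, two_mul]
      exact le_self_add
    have hsplit := Finset.sum_filter_add_sum_filter_not s'
      (fun e => Y M ω / 2 ^ j < val ω e) (fun e => val ω e)
    have hfil : s'.filter (fun e => Y M ω / 2 ^ j < val ω e) =
        I.filter (fun e => Y M ω / 2 ^ j < val ω e) := by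
      ext e
      simp only [hs', Finset.mem_filter]
      constructor
      · rintro ⟨⟨h1, _⟩, h3⟩
        exact ⟨h1, h3⟩
      · rintro ⟨h1, h3⟩
        exact ⟨⟨h1, lt_of_le_of_lt hle h3⟩, h3⟩
    have hs'I : M.Indep (s' : Set E) :=
      hI.subset (by exact_mod_cast Finset.filter_subset _ _)
    have hcard : s'.card ≤ cnt M (Y M ω / 2 ^ (j + 1)) ω :=
      card_le_cnt M _ ω s' hs'I (fun e he => (Finset.mem_filter.1 he).2)
    have h2 : ∑ e ∈ s'.filter (fun e => ¬ Y M ω / 2 ^ j < val ω e), val ω e ≤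
        2 * lev M (j + 1) ω := by
      calc ∑ e ∈ s'.filter (fun e => ¬ Y M ω / 2 ^ j < val ω e), val ω e
          ≤ ∑ _e ∈ s'.filter (fun e => ¬ Y M ω / 2 ^ j < val ω e), Y M ω / 2 ^ j := by
            refine Finset.sum_le_sum fun e he => ?_
            exact not_lt.1 (Finset.mem_filter.1 he).2
        _ = ((s'.filter (fun e => ¬ Y M ω / 2 ^ j < val ω e)).card : ℝ≥0) * (Y M ω / 2 ^ j) := by
            rw [Finset.sum_const, nsmul_eq_mul]
        _ ≤ (cnt M (Y M ω / 2 ^ (j + 1)) ω : ℝ≥0) * (Y M ω / 2 ^ j) := by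
            gcongr
            exact (Finset.card_filter_le _ _).trans hcard
        _ = 2 * lev M (j + 1) ω := by
            rw [lev, half_step (Y M ω) j]
            ring
    rw [← hsplit, hfil, Finset.sum_Icc_succ_top (by omega), mul_add]
    exact add_le_add ih h2

/-- dyadic level decomposition of an independent set when no value exceeds the largest sample -/
theorem sum_le_levels (M : Matroid E) (k : ℕ)
    (hk : ∀ I : Finset E, M.Indep (I : Set E) → I.card ≤ 2 ^ k) (ω : Om E)
    (h : X M ω ≤ Y M ω) (I : Finset E) (hI : M.Indep (I : Set E)) :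
    ∑ e ∈ I, val ω e ≤ Y M ω + 2 * ∑ j ∈ Finset.Icc 1 k, lev M j ω := by
  have hsplit := Finset.sum_filter_add_sum_filter_not I
    (fun e => Y M ω / 2 ^ k < val ω e) (fun e => val ω e)
  have h1 := sum_filter_le_levels M ω h I hI k
  have h2 : ∑ e ∈ I.filter (fun e => ¬ Y M ω / 2 ^ k < val ω e), val ω e ≤ Y M ω := by
    calc ∑ e ∈ I.filter (fun e => ¬ Y M ω / 2 ^ k < val ω e), val ω e
        ≤ ∑ _e ∈ I.filter (fun e => ¬ Y M ω / 2 ^ k < val ω e), Y M ω / 2 ^ k := by
          refine Finset.sum_le_sum fun e he => ?_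
          exact not_lt.1 (Finset.mem_filter.1 he).2
      _ = ((I.filter (fun e => ¬ Y M ω / 2 ^ k < val ω e)).card : ℝ≥0) * (Y M ω / 2 ^ k) := by
          rw [Finset.sum_const, nsmul_eq_mul]
      _ ≤ (2 ^ k : ℝ≥0) * (Y M ω / 2 ^ k) := by
          gcongr
          exact_mod_cast (Finset.card_filter_le _ _).trans (hk I hI)
      _ = Y M ω := by
          field_simp
  rw [← hsplit, add_comm]
  exact add_le_add h2 h1

theorem opt_le_levels (M : Matroid E) (k : ℕ)
    (hk : ∀ I : Finset E, M.Indep (I : Set E) → I.card ≤ 2 ^ k) (ω : Om E)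
    (h : X M ω ≤ Y M ω) :
    opt M ω ≤ (Y M ω : ℝ≥0∞) + 2 * ∑ j ∈ Finset.Icc 1 k, (lev M j ω : ℝ≥0∞) := by
  unfold opt
  refine iSup₂_le fun I hI => ?_
  have := sum_le_levels M k hk ω h I hI
  exact_mod_cast this

end P331
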