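import Vale.Agent.Lib.P331.LR.Defs

namespace P331

open MeasureTheory
open scoped NNReal ENNReal

set_option linter.unusedSectionVars false

variable {E : Type} [Fintype E] [DecidableEq E]

theorem measurable_smp (e : E) : Measurable fun ω : Om E => smp ω e :=
  (measurable_pi_apply e).fst

theorem measurable_val (e : E) : Measurable fun ω : Om E => val ω e :=
  (measurable_pi_apply e).snd

/-- a finite supremum of measurable functions is measurable -/
theorem measurable_finset_sup_aux {α β ι : Type*} [MeasurableSpace α] [MeasurableSpace β]
    [SemilatticeSup β] [OrderBot β] [MeasurableSup₂ β] (s : Finset ι) (f : ι → α → β)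
    (hf : ∀ i, Measurable (f i)) : Measurable fun a => s.sup fun i => f i a := by
  classical
  induction s using Finset.induction_on with
  | empty => simp only [Finset.sup_empty]; exact measurable_const
  | insert i s _ ih =>
    simp only [Finset.sup_insert]
    exact (hf i).sup ih

theorem measurable_X (M : Matroid E) : Measurable (X M) := by
  unfold X
  refine measurable_finset_sup_aux _ _ fun e => ?_
  by_cases h : M.Indep {e}
  · simp only [if_pos h]; exact measurable_val e
  · simp only [if_neg h]; exact measurable_const

theorem measurable_Y (M : Matroid E) : Measurable (Y M) := by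
  unfold Y
  refine measurable_finset_sup_aux _ _ fun e => ?_
  by_cases h : M.Indep {e}
  · simp only [if_pos h]; exact measurable_smp e
  · simp only [if_neg h]; exact measurable_const

theorem measurable_opt (M : Matroid E) : Measurable (opt M) := by
  unfold opt
  refine Measurable.iSup fun I => Measurable.iSup_Prop _ ?_
  exact measurable_coe_nnreal_ennreal.comp
    (Finset.measurable_fun_sum I fun e _ => measurable_val e)

theorem measurable_cnt_aux (M : Matroid E) (t : Om E → ℝ≥0) (ht : Measurable t) :
    Measurable fun ω => cnt M (t ω) ω := by
  unfold cnt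
  refine measurable_finset_sup_aux _ _ fun I => ?_
  refine Measurable.ite ?_ measurable_const measurable_const
  have h1 : MeasurableSet {ω : Om E | ∀ e ∈ I, t ω < val ω e} := by
    have : {ω : Om E | ∀ e ∈ I, t ω < val ω e} = ⋂ e ∈ I, {ω : Om E | t ω < val ω e} := by
      ext ω; simp
    rw [this]
    exact Finset.measurableSet_biInter I fun e _ => measurableSet_lt ht (measurable_val e)
  exact (MeasurableSet.const _).inter h1

theorem measurable_lev (M : Matroid E) (j : ℕ) : Measurable (lev M j) := by
  unfold lev
  have ht : Measurable fun ω : Om E => Y M ω / 2 ^ j := (measurable_Y M).div_const _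
  have hc : Measurable fun ω : Om E => ((cnt M (Y M ω / 2 ^ j) ω : ℕ) : ℝ≥0) :=
    (measurable_from_top (f := fun n : ℕ => (n : ℝ≥0))).comp (measurable_cnt_aux M _ ht)
  exact ht.mul hc

theorem measurableSet_setA (M : Matroid E) : MeasurableSet (setA M) :=
  measurableSet_le (measurable_X M) (measurable_Y M)

theorem measurableSet_good1 (M : Matroid E) : MeasurableSet (good1 M) := by
  have hsplit : good1 M = {ω : Om E | Y M ω < X M ω} ∩
      ⋂ e, {ω : Om E | M.Indep {e} → Y M ω < val ω e → X M ω ≤ val ω e} := by
    ext ω
    simp [good1]
  rw [hsplit]
  refine (measurableSet_lt (measurable_Y M) (measurable_X M)).inter ?_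
  refine MeasurableSet.iInter fun e => ?_
  by_cases h : M.Indep {e}
  · have e1 : {ω : Om E | M.Indep {e} → Y M ω < val ω e → X M ω ≤ val ω e}
        = {ω : Om E | Y M ω < val ω e}ᶜ ∪ {ω : Om E | X M ω ≤ val ω e} := by
      ext ω
      simp only [Set.mem_ofPred_eq, Set.mem_union, Set.mem_compl_iff, h, forall_const]
      tauto
    rw [e1]
    exact (measurableSet_lt (measurable_Y M) (measurable_val e)).compl.union
      (measurableSet_le (measurable_X M) (measurable_val e))
  · have e1 : {ω : Om E | M.Indep {e} → Y M ω < val ω e → X M ω ≤ val ω e} = Set.univ := by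
      ext ω
      simp [h]
    rw [e1]
    exact MeasurableSet.univ

theorem measurableSet_tie (M : Matroid E) : MeasurableSet (tie M) :=
  measurableSet_eq_fun (measurable_X M) (measurable_Y M)

end P331
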