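import Vale.Agent.Lib.P331.LR.Greedy

namespace P331

open scoped NNReal ENNReal

variable {E : Type} [Fintype E] [DecidableEq E]

theorem val_le_X (M : Matroid E) (ω : Om E) (e : E) (he : M.Indep {e}) : val ω e ≤ X M ω := by
  classical
  have h := Finset.le_sup (f := fun e => if M.Indep {e} then val ω e else 0) (Finset.mem_univ e)
  simp only [he, if_true] at h
  unfold X
  convert h

theorem smp_le_Y (M : Matroid E) (ω : Om E) (e : E) (he : M.Indep {e}) : smp ω e ≤ Y M ω := by
  classical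
  have h := Finset.le_sup (f := fun e => if M.Indep {e} then smp ω e else 0) (Finset.mem_univ e)
  simp only [he, if_true] at h
  unfold Y
  convert h

/-- the largest value is attained, unless it is `0` -/
theorem exists_val_eq_X (M : Matroid E) (ω : Om E) (h : 0 < X M ω) :
    ∃ e, M.Indep {e} ∧ val ω e = X M ω := by
  classical
  have hne : (Finset.univ : Finset E).Nonempty := by
    by_contra hc
    rw [Finset.not_nonempty_iff_eq_empty] at hc
    unfold X at h
    rw [hc] at h
    simp at h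
  obtain ⟨e, -, he⟩ := Finset.exists_mem_eq_sup Finset.univ hne
    (fun e => if M.Indep {e} then val ω e else 0)
  have hX : X M ω = if M.Indep {e} then val ω e else 0 := by
    unfold X
    convert he
  by_cases hi : M.Indep {e}
  · rw [if_pos hi] at hX
    exact ⟨e, hi, hX.symm⟩
  · rw [if_neg hi] at hX
    rw [hX] at h
    exact absurd h (lt_irrefl _)

/-- the count is attained -/
theorem exists_cnt (M : Matroid E) (t : ℝ≥0) (ω : Om E) :
    ∃ I : Finset E, M.Indep (I : Set E) ∧ (∀ e ∈ I, t < val ω e) ∧ I.card = cnt M t ω := by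
  classical
  obtain ⟨I, -, hI⟩ := Finset.exists_mem_eq_sup (Finset.univ : Finset (Finset E))
    ⟨∅, Finset.mem_univ _⟩
    (fun I : Finset E => if M.Indep (I : Set E) ∧ ∀ e ∈ I, t < val ω e then I.card else 0)
  have hc : cnt M t ω = if M.Indep (I : Set E) ∧ ∀ e ∈ I, t < val ω e then I.card else 0 := by
    unfold cnt
    convert hI
  by_cases h : M.Indep (I : Set E) ∧ ∀ e ∈ I, t < val ω e
  · rw [if_pos h] at hc
    exact ⟨I, h.1, h.2, hc.symm⟩
  · rw [if_neg h] at hc
    exact ⟨∅, by simp, by simp, by simp [hc]⟩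

theorem lev_le (M : Matroid E) (k j : ℕ) (hj : j ≤ k) (ω : Om E) (l : List E)
    (hl : ∀ e, e ∈ l) : lev M j ω ≤ wt ω (run M (acc M k j ω) l) := by
  classical
  obtain ⟨I, hI, hIt, hIc⟩ := exists_cnt M (Y M ω / 2 ^ j) ω
  have hacc : ∀ e, acc M k j ω e ↔ Y M ω / 2 ^ j < val ω e := by
    intro e
    unfold acc
    rw [if_pos hj]
  have h1 : I.card ≤ (run M (acc M k j ω) l).card :=
    run_card M _ l hl I hI (fun e he => (hacc e).2 (hIt e he))
  have h2 : ∀ e ∈ run M (acc M k j ω) l, Y M ω / 2 ^ j ≤ val ω e :=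
    fun e he => ((hacc e).1 (run_sub M _ l e he)).le
  have h3 := Finset.card_nsmul_le_sum _ _ _ h2
  unfold lev wt
  rw [← hIc]
  calc Y M ω / 2 ^ j * (I.card : ℝ≥0)
      ≤ Y M ω / 2 ^ j * ((run M (acc M k j ω) l).card : ℝ≥0) := by
        gcongr
    _ = (run M (acc M k j ω) l).card • (Y M ω / 2 ^ j) := by
        rw [nsmul_eq_mul, mul_comm]
    _ ≤ _ := h3

theorem top_le (M : Matroid E) (k : ℕ) (ω : Om E) (l : List E) (hl : ∀ e, e ∈ l)
    (h : ω ∈ good1 M) : X M ω ≤ wt ω (run M (acc M k 0 ω) l) := by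
  classical
  obtain ⟨h1, h2⟩ := h
  have hacc : ∀ e, acc M k 0 ω e ↔ Y M ω < val ω e := by
    intro e
    unfold acc
    rw [if_pos (Nat.zero_le k)]
    simp
  obtain ⟨e, he, hev⟩ := exists_val_eq_X M ω (lt_of_le_of_lt zero_le h1)
  have hc := run_card M (acc M k 0 ω) l hl {e} (by simpa using he)
    (fun x hx => by rw [Finset.mem_singleton.1 hx]; exact (hacc e).2 (hev ▸ h1))
  rw [Finset.card_singleton] at hc
  obtain ⟨a, ha⟩ := Finset.card_pos.1 (Nat.lt_of_lt_of_le Nat.zero_lt_one hc)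
  have hai : M.Indep {a} :=
    (run_indep M (acc M k 0 ω) l).subset (by simpa using ha)
  have hav : X M ω ≤ val ω a := h2 a hai ((hacc a).1 (run_sub M _ l a ha))
  unfold wt
  exact hav.trans (Finset.single_le_sum (f := fun e => val ω e) (fun _ _ => zero_le) ha)

theorem tie_le (M : Matroid E) (k : ℕ) (ω : Om E) (l : List E) (hl : ∀ e, e ∈ l)
    (h : ω ∈ tie M) : X M ω ≤ wt ω (run M (acc M k (k + 1) ω) l) := by
  classical
  have h1 : X M ω = Y M ω := h
  have hacc : ∀ e, acc M k (k + 1) ω e ↔ Y M ω ≤ val ω e := by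
    intro e
    unfold acc
    rw [if_neg (by omega)]
  rcases (zero_le : 0 ≤ X M ω).eq_or_lt with h0 | h0
  · rw [← h0]; exact zero_le
  obtain ⟨e, he, hev⟩ := exists_val_eq_X M ω h0
  have hc := run_card M (acc M k (k + 1) ω) l hl {e} (by simpa using he)
    (fun x hx => by rw [Finset.mem_singleton.1 hx]; exact (hacc e).2 (by rw [hev, h1]))
  rw [Finset.card_singleton] at hc
  obtain ⟨a, ha⟩ := Finset.card_pos.1 (Nat.lt_of_lt_of_le Nat.zero_lt_one hc)
  have hav : X M ω ≤ val ω a := by
    rw [h1]; exact (hacc a).1 (run_sub M _ l a ha)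
  unfold wt
  exact hav.trans (Finset.single_le_sum (f := fun e => val ω e) (fun _ _ => zero_le) ha)

end P331
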