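import Vale.Agent.Lib.P331.LR.Transport
import Vale.Agent.Lib.P331.LR.Meas
import Vale.Agent.Lib.P331.LR.Pointwise

namespace P331

open MeasureTheory
open scoped NNReal ENNReal

variable {E : Type} [Fintype E] [DecidableEq E]

theorem X_le_of (M : Matroid E) (ω : Om E) (c : ℝ≥0)
    (h : ∀ e, M.Indep {e} → val ω e ≤ c) : X M ω ≤ c := by
  classical
  unfold X
  apply Finset.sup_le
  intro e _
  by_cases he : M.Indep {e}
  · simpa [he] using h e he
  · simp [he]

theorem Y_le_of (M : Matroid E) (ω : Om E) (c : ℝ≥0)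
    (h : ∀ e, M.Indep {e} → smp ω e ≤ c) : Y M ω ≤ c := by
  classical
  unfold Y
  apply Finset.sup_le
  intro e _
  by_cases he : M.Indep {e}
  · simpa [he] using h e he
  · simp [he]

theorem int_Y_eq_int_X (M : Matroid E) (D : E → Measure ℝ≥0) [∀ e, IsProbabilityMeasure (D e)] :
    ∫⁻ ω, (Y M ω : ℝ≥0∞) ∂(law D) = ∫⁻ ω, (X M ω : ℝ≥0∞) ∂(law D) := by
  have h := lintegral_swp D Finset.univ (fun ω => (X M ω : ℝ≥0∞))
  simp only [X_swp_univ] at h
  exact h

/-- the effect of swapping the element with the largest value below the maximum -/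
theorem swap_facts (M : Matroid E) (ω : Om E) (f : E) (h1 : Y M ω < X M ω) (hf : M.Indep {f})
    (h2 : Y M ω < val ω f) (h3 : val ω f < X M ω) :
    X M (swp {f} ω) = X M ω ∧ Y M (swp {f} ω) = val ω f := by
  have hv : ∀ e, e ≠ f → val (swp {f} ω) e = val ω e := fun e he =>
    val_swp_not_mem _ _ _ (by simpa using he)
  have hs : ∀ e, e ≠ f → smp (swp {f} ω) e = smp ω e := fun e he =>
    smp_swp_not_mem _ _ _ (by simpa using he)
  have hvf : val (swp {f} ω) f = smp ω f := val_swp_mem _ _ _ (by simp)
  have hsf : smp (swp {f} ω) f = val ω f := smp_swp_mem _ _ _ (by simp)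
  constructor
  · apply le_antisymm
    · apply X_le_of
      intro e he
      by_cases hef : e = f
      · subst hef
        rw [hvf]
        exact le_trans (smp_le_Y M ω e he) h1.le
      · rw [hv e hef]; exact val_le_X M ω e he
    · obtain ⟨e, he, hex⟩ := exists_val_eq_X M ω (lt_of_le_of_lt (zero_le) h1)
      have hef : e ≠ f := by
        intro h; subst h; rw [hex] at h3; exact lt_irrefl _ h3
      rw [← hex, ← hv e hef]
      exact val_le_X M _ e he
  · apply le_antisymm
    · apply Y_le_of
      intro e he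
      by_cases hef : e = f
      · subst hef; rw [hsf]
      · rw [hs e hef]; exact le_trans (smp_le_Y M ω e he) h2.le
    · rw [← hsf]; exact smp_le_Y M _ f hf

/-- swap the element with the largest value below the maximum -/
theorem int_X_bad (M : Matroid E) (D : E → Measure ℝ≥0) [∀ e, IsProbabilityMeasure (D e)] :
    ∫⁻ ω, ((setA M)ᶜ \ good1 M).indicator (fun ω => (X M ω : ℝ≥0∞)) ω ∂(law D)
      ≤ ∫⁻ ω, (good1 M).indicator (fun ω => (X M ω : ℝ≥0∞)) ω ∂(law D) := by
  classical
  let K : E → Set (Om E) := fun f => {ω | Y M ω < X M ω ∧ M.Indep {f} ∧ Y M ω < val ω f ∧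
    val ω f < X M ω ∧ ∀ g, M.Indep {g} → val ω g < X M ω → val ω g ≤ val ω f}
  let H : E → Set (Om E) := fun f => {ω | ω ∈ good1 M ∧ M.Indep {f} ∧
    ∀ g, g ≠ f → M.Indep {g} → smp ω g < smp ω f}
  apply transport D (fun ω => (X M ω : ℝ≥0∞)) (fun ω => (X M ω : ℝ≥0∞)) K H
  · -- measurability of K
    intro f
    have m1 : MeasurableSet {ω : Om E | Y M ω < X M ω} :=
      measurableSet_lt (measurable_Y M) (measurable_X M)
    have m2 : MeasurableSet {ω : Om E | M.Indep {f}} := MeasurableSet.const _
    have m3 : MeasurableSet {ω : Om E | Y M ω < val ω f} :=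
      measurableSet_lt (measurable_Y M) (measurable_val f)
    have m4 : MeasurableSet {ω : Om E | val ω f < X M ω} :=
      measurableSet_lt (measurable_val f) (measurable_X M)
    have m5 : MeasurableSet {ω : Om E | ∀ g, M.Indep {g} → val ω g < X M ω → val ω g ≤ val ω f} := by
      have : {ω : Om E | ∀ g, M.Indep {g} → val ω g < X M ω → val ω g ≤ val ω f}
          = ⋂ g, ({ω : Om E | M.Indep {g}}ᶜ ∪ ({ω : Om E | val ω g < X M ω}ᶜ ∪
              {ω : Om E | val ω g ≤ val ω f})) := by
        ext ω
        simp only [Set.mem_ofPred_eq, Set.mem_iInter, Set.mem_union, Set.mem_compl_iff]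
        constructor
        · intro h g
          by_cases a : M.Indep {g}
          · by_cases b : val ω g < X M ω
            · exact Or.inr (Or.inr (h g a b))
            · exact Or.inr (Or.inl b)
          · exact Or.inl a
        · intro h g a b
          rcases h g with h | h | h
          · exact absurd a h
          · exact absurd b h
          · exact h
      rw [this]
      apply MeasurableSet.iInter
      intro g
      exact (MeasurableSet.const _).compl.union
        ((measurableSet_lt (measurable_val g) (measurable_X M)).compl.union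
          (measurableSet_le (measurable_val g) (measurable_val f)))
    exact m1.inter (m2.inter (m3.inter (m4.inter m5)))
  · exact (measurable_X M).coe_nnreal_ennreal
  · -- cover
    intro ω hω
    obtain ⟨hA, hG⟩ := hω
    have h1 : Y M ω < X M ω := by
      simpa [setA] using hA
    have h2 : ∃ e, M.Indep {e} ∧ Y M ω < val ω e ∧ val ω e < X M ω := by
      by_contra hc
      push Not at hc
      exact hG ⟨h1, fun e he hy => hc e he hy⟩
    obtain ⟨e, he, hey, hex⟩ := h2
    let S : Finset E := Finset.univ.filter (fun g => M.Indep {g} ∧ val ω g < X M ω)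
    have hS : S.Nonempty := ⟨e, Finset.mem_filter.2 ⟨Finset.mem_univ _, he, hex⟩⟩
    obtain ⟨f, hfS, hfmax⟩ := Finset.exists_max_image S (fun g => val ω g) hS
    have hf : M.Indep {f} ∧ val ω f < X M ω := (Finset.mem_filter.1 hfS).2
    refine ⟨f, h1, hf.1, ?_, hf.2, ?_⟩
    · exact lt_of_lt_of_le hey (hfmax e (Finset.mem_filter.2 ⟨Finset.mem_univ _, he, hex⟩))
    · intro g hg hgx
      exact hfmax g (Finset.mem_filter.2 ⟨Finset.mem_univ _, hg, hgx⟩)
  · -- map
    intro f ω hω
    obtain ⟨h1, hf, h2, h3, h4⟩ := hω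
    obtain ⟨hX, hY⟩ := swap_facts M ω f h1 hf h2 h3
    have hv : ∀ e, e ≠ f → val (swp {f} ω) e = val ω e := fun e he =>
      val_swp_not_mem _ _ _ (by simpa using he)
    have hs : ∀ e, e ≠ f → smp (swp {f} ω) e = smp ω e := fun e he =>
      smp_swp_not_mem _ _ _ (by simpa using he)
    have hvf : val (swp {f} ω) f = smp ω f := val_swp_mem _ _ _ (by simp)
    have hsf : smp (swp {f} ω) f = val ω f := smp_swp_mem _ _ _ (by simp)
    refine ⟨⟨⟨?_, ?_⟩, hf, ?_⟩, ?_⟩
    · rw [hX, hY]; exact h3
    · intro e he hey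
      rw [hX]
      rw [hY] at hey
      by_cases hef : e = f
      · subst hef
        rw [hvf] at hey
        exact absurd (lt_of_lt_of_le hey (smp_le_Y M ω e he)) (not_lt.2 h2.le)
      · rw [hv e hef] at hey ⊢
        by_contra hc
        exact absurd (h4 e he (not_le.1 hc)) (not_le.2 hey)
    · intro g hg hgi
      rw [hs g hg, hsf]
      exact lt_of_le_of_lt (smp_le_Y M ω g hgi) h2
    · rw [hX]
  · -- disjoint
    intro e e' ω he he'
    by_contra hne
    have a := he.2.2 e' (fun h => hne h.symm) he'.2.1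
    have b := he'.2.2 e hne he.2.1
    exact lt_asymm a b
  · intro e ω he
    exact he.1

/-- global swap -/
theorem int_X_lt (M : Matroid E) (D : E → Measure ℝ≥0) [∀ e, IsProbabilityMeasure (D e)] :
    ∫⁻ ω, {ω | X M ω < Y M ω}.indicator (fun ω => (X M ω : ℝ≥0∞)) ω ∂(law D)
      ≤ ∫⁻ ω, (setA M)ᶜ.indicator (fun ω => (X M ω : ℝ≥0∞)) ω ∂(law D) := by
  rw [← lintegral_swp D Finset.univ (fun ω => (setA M)ᶜ.indicator (fun ω => (X M ω : ℝ≥0∞)) ω)]
  apply lintegral_mono
  intro ω
  by_cases h : X M ω < Y M ω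
  · have h' : swp Finset.univ ω ∈ (setA M)ᶜ := by
      simp only [setA, Set.mem_compl_iff, Set.mem_ofPred_eq, X_swp_univ, Y_swp_univ, not_le]
      exact h
    have h'' : ω ∈ {ω | X M ω < Y M ω} := h
    simp only [Set.indicator_of_mem h', Set.indicator_of_mem h'', X_swp_univ]
    exact_mod_cast h.le
  · have h'' : ω ∉ {ω | X M ω < Y M ω} := h
    rw [Set.indicator_of_notMem h'']
    exact zero_le

theorem int_X_le (M : Matroid E) (D : E → Measure ℝ≥0) [∀ e, IsProbabilityMeasure (D e)] :
    ∫⁻ ω, (X M ω : ℝ≥0∞) ∂(law D)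
      ≤ 4 * ∫⁻ ω, (good1 M).indicator (fun ω => (X M ω : ℝ≥0∞)) ω ∂(law D)
        + ∫⁻ ω, (tie M).indicator (fun ω => (X M ω : ℝ≥0∞)) ω ∂(law D) := by
  have hXm : Measurable (fun ω => (X M ω : ℝ≥0∞)) := (measurable_X M).coe_nnreal_ennreal
  set F : Om E → ℝ≥0∞ := fun ω => (X M ω : ℝ≥0∞) with hF
  set a := ∫⁻ ω, (good1 M).indicator F ω ∂(law D) with ha
  set t := ∫⁻ ω, (tie M).indicator F ω ∂(law D) with ht
  set b := ∫⁻ ω, (setA M)ᶜ.indicator F ω ∂(law D) with hb
  have h1 : ∫⁻ ω, F ω ∂(law D) ≤ b + t + ∫⁻ ω, {ω | X M ω < Y M ω}.indicator F ω ∂(law D) := by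
    have hm12 : Measurable (fun ω => (setA M)ᶜ.indicator F ω + (tie M).indicator F ω) :=
      (hXm.indicator (measurableSet_setA M).compl).add (hXm.indicator (measurableSet_tie M))
    rw [hb, ht, ← lintegral_add_left (hXm.indicator (measurableSet_setA M).compl),
      ← lintegral_add_left hm12]
    apply lintegral_mono
    intro ω
    rcases lt_trichotomy (X M ω) (Y M ω) with h | h | h
    · have : ω ∈ {ω | X M ω < Y M ω} := h
      simp only [Set.indicator_of_mem this]
      exact le_add_self
    · have : ω ∈ tie M := h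
      simp only [Set.indicator_of_mem this]
      exact le_trans le_add_self le_self_add
    · have : ω ∈ (setA M)ᶜ := by simpa [setA] using h
      simp only [Set.indicator_of_mem this]
      exact le_trans le_self_add le_self_add
  have h2 : b ≤ a + ∫⁻ ω, ((setA M)ᶜ \ good1 M).indicator F ω ∂(law D) := by
    rw [hb, ha, ← lintegral_add_left (hXm.indicator (measurableSet_good1 M))]
    apply lintegral_mono
    intro ω
    by_cases hA : ω ∈ (setA M)ᶜ
    · by_cases hg : ω ∈ good1 M
      · simp only [Set.indicator_of_mem hA, Set.indicator_of_mem hg]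
        exact le_self_add
      · have : ω ∈ (setA M)ᶜ \ good1 M := ⟨hA, hg⟩
        simp only [Set.indicator_of_mem hA, Set.indicator_of_mem this]
        exact le_add_self
    · rw [Set.indicator_of_notMem hA]; exact zero_le
  have h3 := int_X_bad M D
  have h4 := int_X_lt M D
  have h5 : b ≤ a + a := le_trans h2 (by gcongr)
  calc ∫⁻ ω, F ω ∂(law D) ≤ b + t + b := le_trans h1 (by gcongr)
    _ ≤ (a + a) + t + (a + a) := by gcongr
    _ = 4 * a + t := by ring

end P331
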