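import Vale.Agent.Lib.P331.LR.StepS
import Vale.Agent.Lib.P331.LR.StepR
import Vale.Agent.Lib.P331.LR.Levels

namespace P331

open MeasureTheory
open scoped NNReal ENNReal

variable {E : Type} [Fintype E] [DecidableEq E]

/-- the benchmark is bounded by the guaranteed gains -/
theorem int_opt_le (M : Matroid E) (k : ℕ)
    (hk : ∀ I : Finset E, M.Indep (I : Set E) → I.card ≤ 2 ^ k)
    (D : E → Measure ℝ≥0) [∀ e, IsProbabilityMeasure (D e)] :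
    ∫⁻ ω, opt M ω ∂(law D)
      ≤ 4 * ∑ j ∈ Finset.Icc 1 k, ∫⁻ ω, (lev M j ω : ℝ≥0∞) ∂(law D)
        + 12 * ∫⁻ ω, (good1 M).indicator (fun ω => (X M ω : ℝ≥0∞)) ω ∂(law D)
        + 3 * ∫⁻ ω, (tie M).indicator (fun ω => (X M ω : ℝ≥0∞)) ω ∂(law D) := by
  have hA := measurableSet_setA M
  have hY : Measurable (fun ω => (Y M ω : ℝ≥0∞)) := (measurable_Y M).coe_nnreal_ennreal
  have hlev : ∀ j, Measurable (fun ω => (lev M j ω : ℝ≥0∞)) :=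
    fun j => (measurable_lev M j).coe_nnreal_ennreal
  have hg_int : ∫⁻ ω, ((Y M ω : ℝ≥0∞) + 2 * ∑ j ∈ Finset.Icc 1 k, (lev M j ω : ℝ≥0∞)) ∂(law D)
      = ∫⁻ ω, (Y M ω : ℝ≥0∞) ∂(law D)
        + 2 * ∑ j ∈ Finset.Icc 1 k, ∫⁻ ω, (lev M j ω : ℝ≥0∞) ∂(law D) := by
    rw [lintegral_add_left hY,
      lintegral_const_mul _ (Finset.measurable_fun_sum _ (fun j _ => hlev j)),
      lintegral_finsetSum _ (fun j _ => hlev j)]
  have h1 : ∫⁻ ω, (setA M).indicator (opt M) ω ∂(law D)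
      ≤ ∫⁻ ω, ((Y M ω : ℝ≥0∞) + 2 * ∑ j ∈ Finset.Icc 1 k, (lev M j ω : ℝ≥0∞)) ∂(law D) := by
    refine lintegral_mono (fun ω => ?_)
    by_cases h : ω ∈ setA M
    · rw [Set.indicator_of_mem h]
      exact opt_le_levels M k hk ω h
    · rw [Set.indicator_of_notMem h]
      exact zero_le
  have h2 : ∫⁻ ω, (setA M).indicator (fun ω => opt M ω + (Y M ω : ℝ≥0∞)) ω ∂(law D)
      ≤ ∫⁻ ω, (((Y M ω : ℝ≥0∞) + 2 * ∑ j ∈ Finset.Icc 1 k, (lev M j ω : ℝ≥0∞))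
          + (Y M ω : ℝ≥0∞)) ∂(law D) := by
    refine lintegral_mono (fun ω => ?_)
    by_cases h : ω ∈ setA M
    · rw [Set.indicator_of_mem h]
      exact add_le_add (opt_le_levels M k hk ω h) le_rfl
    · rw [Set.indicator_of_notMem h]
      exact zero_le
  have h3 : ∫⁻ ω, (((Y M ω : ℝ≥0∞) + 2 * ∑ j ∈ Finset.Icc 1 k, (lev M j ω : ℝ≥0∞))
          + (Y M ω : ℝ≥0∞)) ∂(law D)
      = ∫⁻ ω, ((Y M ω : ℝ≥0∞) + 2 * ∑ j ∈ Finset.Icc 1 k, (lev M j ω : ℝ≥0∞)) ∂(law D)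
        + ∫⁻ ω, (Y M ω : ℝ≥0∞) ∂(law D) := lintegral_add_right _ hY
  have hsplit : ∫⁻ ω, opt M ω ∂(law D)
      = ∫⁻ ω, (setA M).indicator (opt M) ω ∂(law D)
        + ∫⁻ ω, (setA M)ᶜ.indicator (opt M) ω ∂(law D) := by
    rw [lintegral_indicator hA, lintegral_indicator hA.compl, lintegral_add_compl _ hA]
  have h4 := int_opt_compl M D
  have h5 := int_Y_eq_int_X M D
  have h6 := int_X_le M D
  rw [h3] at h2
  rw [hg_int, h5] at h1 h2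
  calc ∫⁻ ω, opt M ω ∂(law D)
      = ∫⁻ ω, (setA M).indicator (opt M) ω ∂(law D)
        + ∫⁻ ω, (setA M)ᶜ.indicator (opt M) ω ∂(law D) := hsplit
    _ ≤ (∫⁻ ω, (X M ω : ℝ≥0∞) ∂(law D)
          + 2 * ∑ j ∈ Finset.Icc 1 k, ∫⁻ ω, (lev M j ω : ℝ≥0∞) ∂(law D))
        + ((∫⁻ ω, (X M ω : ℝ≥0∞) ∂(law D)
          + 2 * ∑ j ∈ Finset.Icc 1 k, ∫⁻ ω, (lev M j ω : ℝ≥0∞) ∂(law D))
          + ∫⁻ ω, (X M ω : ℝ≥0∞) ∂(law D)) := add_le_add h1 (h4.trans h2)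
    _ = 4 * ∑ j ∈ Finset.Icc 1 k, ∫⁻ ω, (lev M j ω : ℝ≥0∞) ∂(law D)
        + 3 * ∫⁻ ω, (X M ω : ℝ≥0∞) ∂(law D) := by ring
    _ ≤ 4 * ∑ j ∈ Finset.Icc 1 k, ∫⁻ ω, (lev M j ω : ℝ≥0∞) ∂(law D)
        + 3 * (4 * ∫⁻ ω, (good1 M).indicator (fun ω => (X M ω : ℝ≥0∞)) ω ∂(law D)
        + ∫⁻ ω, (tie M).indicator (fun ω => (X M ω : ℝ≥0∞)) ω ∂(law D)) := by
      gcongr
    _ = 4 * ∑ j ∈ Finset.Icc 1 k, ∫⁻ ω, (lev M j ω : ℝ≥0∞) ∂(law D)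
        + 12 * ∫⁻ ω, (good1 M).indicator (fun ω => (X M ω : ℝ≥0∞)) ω ∂(law D)
        + 3 * ∫⁻ ω, (tie M).indicator (fun ω => (X M ω : ℝ≥0∞)) ω ∂(law D) := by ring

/-- main theorem: against every order function -/
theorem main (M : Matroid E) (k : ℕ)
    (hk : ∀ I : Finset E, M.Indep (I : Set E) → I.card ≤ 2 ^ k)
    (D : E → Measure ℝ≥0) [∀ e, IsProbabilityMeasure (D e)]
    (π : ℕ → Om E → List E) (hπ : ∀ j ω e, e ∈ π j ω) :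
    ∫⁻ ω, opt M ω ∂(law D)
      ≤ 12 * ∑ j ∈ Finset.range (k + 2),
          ∫⁻ ω, (wt ω (run M (acc M k j ω) (π j ω)) : ℝ≥0∞) ∂(law D) := by
  have h0 := int_opt_le M k hk D
  have hl : ∑ j ∈ Finset.Icc 1 k, ∫⁻ ω, (lev M j ω : ℝ≥0∞) ∂(law D)
      ≤ ∑ j ∈ Finset.Icc 1 k,
          ∫⁻ ω, (wt ω (run M (acc M k j ω) (π j ω)) : ℝ≥0∞) ∂(law D) := by
    refine Finset.sum_le_sum (fun j hj => lintegral_mono (fun ω => ?_))
    exact ENNReal.coe_le_coe.mpr (lev_le M k j (Finset.mem_Icc.mp hj).2 ω _ (hπ j ω))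
  have hg : ∫⁻ ω, (good1 M).indicator (fun ω => (X M ω : ℝ≥0∞)) ω ∂(law D)
      ≤ ∫⁻ ω, (wt ω (run M (acc M k 0 ω) (π 0 ω)) : ℝ≥0∞) ∂(law D) := by
    refine lintegral_mono (fun ω => ?_)
    by_cases h : ω ∈ good1 M
    · rw [Set.indicator_of_mem h]
      exact ENNReal.coe_le_coe.mpr (top_le M k ω _ (hπ 0 ω) h)
    · rw [Set.indicator_of_notMem h]
      exact zero_le
  have ht : ∫⁻ ω, (tie M).indicator (fun ω => (X M ω : ℝ≥0∞)) ω ∂(law D)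
      ≤ ∫⁻ ω, (wt ω (run M (acc M k (k + 1) ω) (π (k + 1) ω)) : ℝ≥0∞) ∂(law D) := by
    refine lintegral_mono (fun ω => ?_)
    by_cases h : ω ∈ tie M
    · rw [Set.indicator_of_mem h]
      exact ENNReal.coe_le_coe.mpr (tie_le M k ω _ (hπ (k + 1) ω) h)
    · rw [Set.indicator_of_notMem h]
      exact zero_le
  have hset : Finset.range (k + 2) = insert 0 (insert (k + 1) (Finset.Icc 1 k)) := by
    ext j
    simp only [Finset.mem_range, Finset.mem_insert, Finset.mem_Icc]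
    omega
  rw [hset, Finset.sum_insert (by simp), Finset.sum_insert (by simp)]
  generalize (∑ j ∈ Finset.Icc 1 k, ∫⁻ ω, (lev M j ω : ℝ≥0∞) ∂(law D)) = a at *
  generalize (∑ j ∈ Finset.Icc 1 k,
          ∫⁻ ω, (wt ω (run M (acc M k j ω) (π j ω)) : ℝ≥0∞) ∂(law D)) = a' at *
  generalize (∫⁻ ω, (good1 M).indicator (fun ω => (X M ω : ℝ≥0∞)) ω ∂(law D)) = b at *
  generalize (∫⁻ ω, (wt ω (run M (acc M k 0 ω) (π 0 ω)) : ℝ≥0∞) ∂(law D)) = b' at *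
  generalize (∫⁻ ω, (tie M).indicator (fun ω => (X M ω : ℝ≥0∞)) ω ∂(law D)) = c at *
  generalize (∫⁻ ω, (wt ω (run M (acc M k (k + 1) ω) (π (k + 1) ω)) : ℝ≥0∞) ∂(law D)) = c' at *
  calc _ ≤ 4 * a + 12 * b + 3 * c := h0
    _ ≤ 12 * a' + 12 * b' + 12 * c' := by
      have e1 : (4 : ℝ≥0∞) ≤ 12 := by norm_num
      have e2 : (3 : ℝ≥0∞) ≤ 12 := by norm_num
      gcongr
    _ = 12 * (b' + (c' + a')) := by ring

end P331
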