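import Vale.Agent.Lib.P331.LR.Transport
import Vale.Agent.Lib.P331.LR.Meas
import Vale.Agent.Lib.P331.LR.Pointwise

namespace P331

open MeasureTheory
open scoped NNReal ENNReal

variable {E : Type} [Fintype E] [DecidableEq E]

/-- lowering one value costs the prophet at most that value -/
theorem opt_le_opt_swp (M : Matroid E) (ω : Om E) (e : E) :
    opt M ω ≤ opt M (swp {e} ω) + (val ω e : ℝ≥0∞) := by
  classical
  unfold opt
  refine iSup₂_le (fun I hI => ?_)
  have hIe : M.Indep ((I.erase e : Finset E) : Set E) :=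
    hI.subset (by exact_mod_cast Finset.erase_subset e I)
  have hsame : ∑ x ∈ I.erase e, val ω x = ∑ x ∈ I.erase e, val (swp {e} ω) x := by
    refine Finset.sum_congr rfl (fun x hx => ?_)
    rw [val_swp_not_mem]
    simpa using Finset.ne_of_mem_erase hx
  have hle : ∑ x ∈ I, val ω x ≤ ∑ x ∈ I.erase e, val ω x + val ω e := by
    by_cases he : e ∈ I
    · rw [Finset.sum_erase_add _ _ he]
    · rw [Finset.erase_eq_of_notMem he]
      exact le_self_add
  have h1 : ((∑ x ∈ I.erase e, val (swp {e} ω) x : ℝ≥0) : ℝ≥0∞)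
      ≤ ⨆ (I : Finset E) (_ : M.Indep (I : Set E)),
          ((∑ x ∈ I, val (swp {e} ω) x : ℝ≥0) : ℝ≥0∞) :=
    le_iSup₂ (f := fun (I : Finset E) (_ : M.Indep (I : Set E)) =>
      ((∑ x ∈ I, val (swp {e} ω) x : ℝ≥0) : ℝ≥0∞)) (I.erase e) hIe
  calc ((∑ x ∈ I, val ω x : ℝ≥0) : ℝ≥0∞)
      ≤ ((∑ x ∈ I.erase e, val ω x + val ω e : ℝ≥0) : ℝ≥0∞) := by exact_mod_cast hle
    _ = ((∑ x ∈ I.erase e, val (swp {e} ω) x : ℝ≥0) : ℝ≥0∞) + (val ω e : ℝ≥0∞) := by
        rw [hsame]; push_cast; rfl
    _ ≤ _ := by gcongr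

omit [DecidableEq E] in
theorem stepS_X_le (M : Matroid E) (ω : Om E) (c : ℝ≥0)
    (h : ∀ g, M.Indep {g} → val ω g ≤ c) : X M ω ≤ c := by
  classical
  unfold X
  refine Finset.sup_le (fun g _ => ?_)
  by_cases hg : M.Indep {g}
  · simpa [hg] using h g hg
  · simp [hg]

omit [DecidableEq E] in
theorem stepS_Y_le (M : Matroid E) (ω : Om E) (c : ℝ≥0)
    (h : ∀ g, M.Indep {g} → smp ω g ≤ c) : Y M ω ≤ c := by
  classical
  unfold Y
  refine Finset.sup_le (fun g _ => ?_)
  by_cases hg : M.Indep {g}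
  · simpa [hg] using h g hg
  · simp [hg]

/-- the part of the benchmark where the largest value beats all samples is dominated by the
complementary part (swap the element with the largest value) -/
theorem int_opt_compl (M : Matroid E) (D : E → Measure ℝ≥0) [∀ e, IsProbabilityMeasure (D e)] :
    ∫⁻ ω, (setA M)ᶜ.indicator (opt M) ω ∂(law D)
      ≤ ∫⁻ ω, (setA M).indicator (fun ω => opt M ω + (Y M ω : ℝ≥0∞)) ω ∂(law D) := by
  classical
  refine transport D (opt M) (fun ω => opt M ω + (Y M ω : ℝ≥0∞))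
    (fun e => {ω | Y M ω < X M ω ∧ M.Indep {e} ∧ val ω e = X M ω})
    (fun e => {ω | M.Indep {e} ∧ X M ω ≤ Y M ω ∧
      ∀ g, g ≠ e → M.Indep {g} → smp ω g < smp ω e})
    (setA M)ᶜ (setA M) ?_ (measurable_opt M) ?_ ?_ ?_ ?_
  · intro e
    have h1 : MeasurableSet {ω : Om E | Y M ω < X M ω} :=
      measurableSet_lt (measurable_Y M) (measurable_X M)
    have h2 : MeasurableSet {_ω : Om E | M.Indep {e}} := MeasurableSet.const _
    have h3 : MeasurableSet {ω : Om E | val ω e = X M ω} :=
      measurableSet_eq_fun (measurable_val e) (measurable_X M)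
    exact h1.inter (h2.inter h3)
  · intro ω hω
    have hlt : Y M ω < X M ω := by
      by_contra hc
      exact hω (not_lt.mp hc)
    obtain ⟨e, he, hev⟩ := exists_val_eq_X M ω (lt_of_le_of_lt zero_le hlt)
    exact ⟨e, hlt, he, hev⟩
  · rintro e ω ⟨hlt, he, hev⟩
    have hse : smp (swp {e} ω) e = X M ω := by
      rw [smp_swp_mem _ _ _ (Finset.mem_singleton_self e), hev]
    have hsg : ∀ g, g ≠ e → smp (swp {e} ω) g = smp ω g := fun g hg =>
      smp_swp_not_mem _ _ _ (by simpa using hg)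
    have hvg : ∀ g, g ≠ e → val (swp {e} ω) g = val ω g := fun g hg =>
      val_swp_not_mem _ _ _ (by simpa using hg)
    have hve : val (swp {e} ω) e = smp ω e :=
      val_swp_mem _ _ _ (Finset.mem_singleton_self e)
    have hY : Y M (swp {e} ω) = X M ω := by
      apply le_antisymm
      · refine stepS_Y_le M _ _ (fun g hg => ?_)
        by_cases hge : g = e
        · rw [hge, hse]
        · rw [hsg g hge]
          exact (smp_le_Y M ω g hg).trans hlt.le
      · rw [← hse]
        exact smp_le_Y M _ e he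
    have hX : X M (swp {e} ω) ≤ X M ω := by
      refine stepS_X_le M _ _ (fun g hg => ?_)
      by_cases hge : g = e
      · rw [hge, hve]
        exact (smp_le_Y M ω e he).trans hlt.le
      · rw [hvg g hge]
        exact val_le_X M ω g hg
    refine ⟨⟨he, by rw [hY]; exact hX, fun g hge hg => ?_⟩, ?_⟩
    · rw [hsg g hge, hse]
      exact lt_of_le_of_lt (smp_le_Y M ω g hg) hlt
    · have := opt_le_opt_swp M ω e
      rw [hev] at this
      simpa [hY] using this
  · rintro e e' ω ⟨he, -, h1⟩ ⟨he', -, h2⟩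
    by_contra hne
    have a := h1 e' (fun h => hne h.symm) he'
    have b := h2 e hne he
    exact lt_asymm a b
  · rintro e ω ⟨-, h, -⟩
    exact h

end P331
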