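import Vale.Agent.Lib.P331.LR.Defs

namespace P331

open MeasureTheory
open scoped NNReal ENNReal

variable {E : Type} [Fintype E] [DecidableEq E]

theorem smp_swp_mem (T : Finset E) (ω : Om E) (e : E) (h : e ∈ T) :
    smp (swp T ω) e = val ω e := by
  simp [smp, val, swp, h]

theorem val_swp_mem (T : Finset E) (ω : Om E) (e : E) (h : e ∈ T) :
    val (swp T ω) e = smp ω e := by
  simp [smp, val, swp, h]

theorem smp_swp_not_mem (T : Finset E) (ω : Om E) (e : E) (h : e ∉ T) :
    smp (swp T ω) e = smp ω e := by
  simp [smp, swp, h]

theorem val_swp_not_mem (T : Finset E) (ω : Om E) (e : E) (h : e ∉ T) :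
    val (swp T ω) e = val ω e := by
  simp [val, swp, h]

theorem swp_swp (T : Finset E) (ω : Om E) : swp T (swp T ω) = ω := by
  funext e
  by_cases h : e ∈ T <;> simp [swp, h]

theorem X_swp_univ (M : Matroid E) (ω : Om E) : X M (swp Finset.univ ω) = Y M ω := by
  simp [X, Y, val_swp_mem]

theorem Y_swp_univ (M : Matroid E) (ω : Om E) : Y M (swp Finset.univ ω) = X M ω := by
  simp [X, Y, smp_swp_mem]

theorem measurePreserving_swp (D : E → Measure ℝ≥0) [∀ e, IsProbabilityMeasure (D e)]
    (T : Finset E) : MeasurePreserving (swp T) (law D) (law D) := by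
  have h : ∀ e, MeasurePreserving
      (fun p : ℝ≥0 × ℝ≥0 => if e ∈ T then p.swap else p) ((D e).prod (D e)) ((D e).prod (D e)) := by
    intro e
    by_cases he : e ∈ T
    · simp only [he, if_true]
      exact Measure.measurePreserving_swap
    · simp only [he, if_false]
      exact MeasurePreserving.id _
  have := measurePreserving_pi (fun e => (D e).prod (D e)) (fun e => (D e).prod (D e)) h
  exact this

/-- exchanging samples and values on a set of elements does not change the law: every integral is
invariant (no measurability of the integrand is needed) -/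
theorem lintegral_swp (D : E → Measure ℝ≥0) [∀ e, IsProbabilityMeasure (D e)] (T : Finset E)
    (g : Om E → ℝ≥0∞) : ∫⁻ ω, g (swp T ω) ∂(law D) = ∫⁻ ω, g ω ∂(law D) := by
  have hmp := measurePreserving_swp D T
  let eqv : Om E ≃ᵐ Om E :=
    { toFun := swp T
      invFun := swp T
      left_inv := swp_swp T
      right_inv := swp_swp T
      measurable_toFun := hmp.measurable
      measurable_invFun := hmp.measurable }
  exact hmp.lintegral_comp_emb eqv.measurableEmbedding g

end P331
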