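import Vale.Agent.Lib.P331.LR.Swap

namespace P331

open MeasureTheory
open scoped NNReal ENNReal

variable {E : Type} [Fintype E] [DecidableEq E]

/-- superadditivity of the lower integral over a finite sum (no measurability needed) -/
theorem sum_lintegral_le {α ι : Type*} [MeasurableSpace α] (μ : Measure α) (s : Finset ι)
    (f : ι → α → ℝ≥0∞) :
    ∑ i ∈ s, ∫⁻ a, f i a ∂μ ≤ ∫⁻ a, ∑ i ∈ s, f i a ∂μ := by
  classical
  induction s using Finset.induction_on with
  | empty => simp
  | insert i s hi ih =>
    simp only [Finset.sum_insert hi]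
    calc ∫⁻ a, f i a ∂μ + ∑ j ∈ s, ∫⁻ a, f j a ∂μ
        ≤ ∫⁻ a, f i a ∂μ + ∫⁻ a, ∑ j ∈ s, f j a ∂μ := by gcongr
      _ ≤ ∫⁻ a, (f i a + ∑ j ∈ s, f j a) ∂μ := le_lintegral_add _ _

/-- transport of mass by single swaps: `B` is covered by pieces `K e`; the swap of `e` maps `K e`
into `H e`, where `F ≤ G ∘ swap`; the sets `H e` are pairwise disjoint subsets of `C` -/
theorem transport (D : E → Measure ℝ≥0) [∀ e, IsProbabilityMeasure (D e)]
    (F G : Om E → ℝ≥0∞) (K H : E → Set (Om E)) (B C : Set (Om E))
    (hK : ∀ e, MeasurableSet (K e)) (hF : Measurable F)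
    (hcover : ∀ ω ∈ B, ∃ e, ω ∈ K e)
    (hmap : ∀ e ω, ω ∈ K e → swp {e} ω ∈ H e ∧ F ω ≤ G (swp {e} ω))
    (hdisj : ∀ e e' ω, ω ∈ H e → ω ∈ H e' → e = e')
    (hsub : ∀ e ω, ω ∈ H e → ω ∈ C) :
    ∫⁻ ω, B.indicator F ω ∂(law D) ≤ ∫⁻ ω, C.indicator G ω ∂(law D) := by
  classical
  calc ∫⁻ ω, B.indicator F ω ∂(law D)
      ≤ ∫⁻ ω, ∑ e, (K e).indicator F ω ∂(law D) := by
        apply lintegral_mono
        intro ω
        by_cases hω : ω ∈ B
        · obtain ⟨e, he⟩ := hcover ω hω
          rw [Set.indicator_of_mem hω]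
          calc F ω = (K e).indicator F ω := (Set.indicator_of_mem he F).symm
            _ ≤ ∑ e, (K e).indicator F ω :=
              Finset.single_le_sum (f := fun e => (K e).indicator F ω)
                (fun _ _ => zero_le) (Finset.mem_univ e)
        · rw [Set.indicator_of_notMem hω]; exact zero_le
    _ = ∑ e, ∫⁻ ω, (K e).indicator F ω ∂(law D) := by
        rw [lintegral_finsetSum]
        intro e _
        exact hF.indicator (hK e)
    _ ≤ ∑ e, ∫⁻ ω, (H e).indicator G ω ∂(law D) := by
        apply Finset.sum_le_sum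
        intro e _
        rw [← lintegral_swp D {e} (fun ω => (H e).indicator G ω)]
        apply lintegral_mono
        intro ω
        by_cases hω : ω ∈ K e
        · obtain ⟨h1, h2⟩ := hmap e ω hω
          simp only [Set.indicator_of_mem hω, Set.indicator_of_mem h1]
          exact h2
        · rw [Set.indicator_of_notMem hω]; exact zero_le
    _ ≤ ∫⁻ ω, ∑ e, (H e).indicator G ω ∂(law D) := sum_lintegral_le _ _ _
    _ ≤ ∫⁻ ω, C.indicator G ω ∂(law D) := by
        apply lintegral_mono
        intro ω
        by_cases h : ∃ e, ω ∈ H e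
        · obtain ⟨e, he⟩ := h
          show ∑ e, (H e).indicator G ω ≤ _
          rw [Finset.sum_eq_single e]
          · rw [Set.indicator_of_mem he, Set.indicator_of_mem (hsub e ω he)]
          · intro e' _ hne
            apply Set.indicator_of_notMem
            intro he'
            exact hne (hdisj e' e ω he' he)
          · intro h; exact absurd (Finset.mem_univ e) h
        · push Not at h
          show ∑ e, (H e).indicator G ω ≤ _
          rw [Finset.sum_eq_zero]
          · exact zero_le
          · intro e _; exact Set.indicator_of_notMem (h e) _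

end P331
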